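import Vale.Agent.P243.Slices

/-!
Bang's half-area inequality for coverings whose axes are all parallel to one plane.
-/

open MeasureTheory Set
open scoped ENNReal

namespace Vale.Agent.Results.P243.CoplanarAxes

open Vale.Agent.P243

/-- The bound with bases and shadows in the planes perpendicular to the axes. -/
theorem coplanar_internal (K : Set E3) (hKc : IsCompact K) (hKv : Convex ℝ K)
    (hKi : (interior K).Nonempty)
    {ι : Type*} [Fintype ι] (u : ι → E3) (hu : ∀ i, ‖u i‖ = 1)
    (B : ∀ i, Set (perpPlane (u i)))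
    (v : E3) (hv : v ≠ 0) (huv : ∀ i, inner ℝ (u i) v = 0)
    (hcover : K ⊆ ⋃ i, cylinder (u i) (B i)) :
    (1 / 2 : ℝ≥0∞) * ⨅ w : {w : E3 // ‖w‖ = 1}, volume (shadow K (w : E3))
      ≤ ∑ i, volume (B i) := by
  classical
  -- normalise the common perpendicular
  set v₀ : E3 := ‖v‖⁻¹ • v with hv₀def
  have hvpos : 0 < ‖v‖ := norm_pos_iff.mpr hv
  have hv₀ : ‖v₀‖ = 1 := by
    rw [hv₀def, norm_smul, norm_inv, norm_norm]
    field_simp
  have huv₀ : ∀ i, inner ℝ (u i) v₀ = 0 := by
    intro i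
    rw [hv₀def, inner_smul_right, huv i, mul_zero]
  have hvv : inner ℝ v₀ v₀ = 1 := by
    rw [real_inner_self_eq_norm_sq, hv₀]; norm_num
  -- heights of the body
  obtain ⟨x₁, hx₁⟩ := hKi
  have hne : K.Nonempty := ⟨x₁, interior_subset hx₁⟩
  have hhc : ContinuousOn (fun x : E3 => inner ℝ x v₀) K := Continuous.continuousOn (by fun_prop)
  obtain ⟨xt, hxt, hmax⟩ := hKc.exists_isMaxOn hne hhc
  obtain ⟨xb, hxb, hmin⟩ := hKc.exists_isMinOn hne hhc
  set tt : ℝ := inner ℝ xt v₀ with htt
  set tb : ℝ := inner ℝ xb v₀ with htb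
  have hTpos : 0 < tt - tb := by
    obtain ⟨r, hr, hball⟩ := Metric.isOpen_iff.mp isOpen_interior x₁ hx₁
    have hp : x₁ + (r / 2) • v₀ ∈ K := by
      apply interior_subset
      apply hball
      rw [Metric.mem_ball, dist_eq_norm]
      simp only [add_sub_cancel_left, norm_smul, hv₀, mul_one, Real.norm_eq_abs]
      rw [abs_of_pos (by positivity)]
      linarith
    have hm : x₁ - (r / 2) • v₀ ∈ K := by
      apply interior_subset
      apply hball
      rw [Metric.mem_ball, dist_eq_norm]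
      simp only [sub_sub_cancel_left, norm_neg, norm_smul, hv₀, mul_one, Real.norm_eq_abs]
      rw [abs_of_pos (by positivity)]
      linarith
    have h1 : inner ℝ (x₁ + (r / 2) • v₀) v₀ ≤ tt := hmax hp
    have h2 : tb ≤ inner ℝ (x₁ - (r / 2) • v₀) v₀ := hmin hm
    rw [inner_add_left, inner_smul_left, hvv] at h1
    rw [inner_sub_left, inner_smul_left, hvv] at h2
    simp only [conj_trivial] at h1 h2
    linarith
  set T : ℝ := tt - tb with hT
  set t₀ : ℝ := (tb + tt) / 2 with ht₀
  have hb' : inner ℝ xb v₀ = t₀ - T / 2 := by rw [← htb, ht₀, hT]; ring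
  have ht' : inner ℝ xt v₀ = t₀ + T / 2 := by rw [← htt, ht₀, hT]; ring
  have hrange : ∀ x ∈ K, t₀ - T / 2 ≤ inner ℝ x v₀ ∧ inner ℝ x v₀ ≤ t₀ + T / 2 := by
    intro x hx
    rw [← hb', ← ht']
    exact ⟨hmin hx, hmax hx⟩
  -- a point at the middle height
  have hmid : ∃ x ∈ K, inner ℝ x v₀ = t₀ := by
    refine ⟨(1 / 2 : ℝ) • xb + (1 / 2 : ℝ) • xt, hKv hxb hxt (by norm_num) (by norm_num)
      (by norm_num), ?_⟩
    rw [inner_add_left, inner_smul_left, inner_smul_left, hb', ht']
    simp only [conj_trivial]; ring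
  -- normals
  have hnex : ∀ i, ∃ c : E3, ‖c‖ = 1 ∧ inner ℝ c (u i) = 0 ∧ inner ℝ c v₀ = 0 := fun i =>
    exists_third (u i) v₀ (hu i) hv₀ (huv₀ i)
  choose n hn hnu hnv using hnex
  -- slices of the bases
  have hslices : ∀ i, ∃ S : ℝ → Set ℝ, Measurable (fun t => volume (S t)) ∧
      ∫⁻ t, volume (S t) = volume (B i) ∧
      ∀ b ∈ B i, inner ℝ (b : E3) (n i) ∈ S (inner ℝ (b : E3) v₀) := fun i =>
    base_slices (u i) v₀ (n i) (hu i) hv₀ (hn i) (huv₀ i)
      (by rw [real_inner_comm]; exact hnu i) (by rw [real_inner_comm]; exact hnv i) (B i)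
  choose S hSm hSint hSmem using hslices
  -- the smallest shadow
  set A : ℝ≥0∞ := ⨅ w : {w : E3 // ‖w‖ = 1}, volume (shadow K (w : E3)) with hA
  have hshadow_compact : ∀ w : E3, IsCompact (shadow K w) := fun w =>
    hKc.image ((perpPlane w).orthogonalProjectionOnto.continuous)
  have hAfin : A ≠ ⊤ := by
    have h1 : A ≤ volume (shadow K v₀) := iInf_le (fun w : {w : E3 // ‖w‖ = 1} =>
      volume (shadow K (w : E3))) ⟨v₀, hv₀⟩
    exact ne_top_of_le_ne_top (hshadow_compact v₀).measure_lt_top.ne h1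
  set w' : ℝ := A.toReal / T with hw'
  have hw'0 : 0 ≤ w' := div_nonneg ENNReal.toReal_nonneg hTpos.le
  -- the middle section is wide in every direction
  have hwidth : ∀ a : E3, ‖a‖ = 1 → inner ℝ a v₀ = 0 →
      ∃ x ∈ K, ∃ y ∈ K, inner ℝ x v₀ = t₀ ∧ inner ℝ y v₀ = t₀ ∧ w' ≤ inner ℝ (x - y) a := by
    intro a ha hav
    have hsc : IsCompact (K ∩ {x | inner ℝ x v₀ = t₀}) :=
      hKc.inter_right (isClosed_eq (by fun_prop) continuous_const)
    have hsne : (K ∩ {x | inner ℝ x v₀ = t₀}).Nonempty := by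
      obtain ⟨x, hx, hxt⟩ := hmid
      exact ⟨x, hx, hxt⟩
    have hcf : ContinuousOn (fun x : E3 => inner ℝ x a) (K ∩ {x | inner ℝ x v₀ = t₀}) :=
      Continuous.continuousOn (by fun_prop)
    obtain ⟨x, hx, hxmax⟩ := hsc.exists_isMaxOn hsne hcf
    obtain ⟨y, hy, hymin⟩ := hsc.exists_isMinOn hsne hcf
    refine ⟨x, hx.1, y, hy.1, hx.2, hy.2, ?_⟩
    obtain ⟨c, hc, hca, hcv⟩ := exists_third a v₀ ha hv₀ hav
    have hbound : volume (shadow K c) ≤ ENNReal.ofReal (T * inner ℝ (x - y) a) := by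
      refine shadow_volume_le K hKc hKv c v₀ a hc hv₀ ha hcv hca
        (by rw [real_inner_comm]; exact hav) t₀ T hTpos xb xt hxb hxt hb' ht' hrange _ ?_
      intro x' hx' y' hy' hx't hy't
      have h1 : inner ℝ x' a ≤ inner ℝ x a := hxmax ⟨hx', hx't⟩
      have h2 : inner ℝ y a ≤ inner ℝ y' a := hymin ⟨hy', hy't⟩
      rw [inner_sub_left, inner_sub_left]
      linarith
    have hω0 : 0 ≤ inner ℝ (x - y) a := by
      have h1 : inner ℝ y a ≤ inner ℝ x a := hxmax hy
      rw [inner_sub_left]; linarith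
    have hAle : A ≤ ENNReal.ofReal (T * inner ℝ (x - y) a) :=
      le_trans (iInf_le (fun w : {w : E3 // ‖w‖ = 1} => volume (shadow K (w : E3))) ⟨c, hc⟩) hbound
    have h3 : A.toReal ≤ T * inner ℝ (x - y) a :=
      ENNReal.toReal_le_of_le_ofReal (by positivity) hAle
    rw [hw', div_le_iff₀ hTpos]
    linarith
  -- each section carries Bang's bound
  have hsec : ∀ t ∈ Icc (t₀ - T / 2) (t₀ + T / 2),
      ENNReal.ofReal (w' * (1 - 2 * |t - t₀| / T)) ≤ ∑ i, volume (S i t) := by
    rintro t ⟨ht1, ht2⟩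
    set lam : ℝ := 2 * |t - t₀| / T with hlam
    have hl0 : 0 ≤ lam := by positivity
    have hl1 : lam ≤ 1 := by
      rw [hlam, div_le_one hTpos]
      have : |t - t₀| ≤ T / 2 := by
        rw [abs_le]; constructor <;> linarith
      linarith
    obtain ⟨xe, hxe, hxeh⟩ : ∃ xe ∈ K, (1 - lam) * t₀ + lam * inner ℝ xe v₀ = t := by
      rcases le_total t₀ t with h | h
      · refine ⟨xt, hxt, ?_⟩
        rw [ht', hlam, abs_of_nonneg (by linarith)]
        field_simp
        ring
      · refine ⟨xb, hxb, ?_⟩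
        rw [hb', hlam, abs_of_nonpos (by linarith)]
        field_simp
        ring
    have hcomb : ∀ x ∈ K, inner ℝ x v₀ = t₀ →
        (1 - lam) • x + lam • xe ∈ K ∧ inner ℝ ((1 - lam) • x + lam • xe) v₀ = t := by
      intro x hx hxt
      refine ⟨hKv hx hxe (by linarith) hl0 (by ring), ?_⟩
      rw [inner_add_left, inner_smul_left, inner_smul_left, hxt]
      simpa using hxeh
    refine section_bang K hKc hKv v₀ hv₀ t ?_ n hn hnv (fun i => S i t) ?_ _ ?_
    · obtain ⟨x, hx, hxt⟩ := hmid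
      exact ⟨_, (hcomb x hx hxt).1, (hcomb x hx hxt).2⟩
    · intro x hx hxt
      have hxc := hcover hx
      obtain ⟨i, hi⟩ := Set.mem_iUnion.mp hxc
      obtain ⟨b, hb, s, hbs⟩ := hi
      refine ⟨i, ?_⟩
      have h1 : inner ℝ (b : E3) v₀ = t := by
        have : (b : E3) = x - s • u i := by rw [hbs]; abel
        rw [this, inner_sub_left, inner_smul_left, huv₀ i, hxt]
        simp
      have h2 : inner ℝ (b : E3) (n i) = inner ℝ x (n i) := by
        have : (b : E3) = x - s • u i := by rw [hbs]; abel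
        rw [this, inner_sub_left, inner_smul_left, real_inner_comm (n i) (u i), hnu i]
        simp
      have h3 := hSmem i b hb
      rw [h1, h2] at h3
      exact h3
    · intro a ha hav
      obtain ⟨x, hx, y, hy, hxt, hyt, hxy⟩ := hwidth a ha hav
      refine ⟨_, (hcomb x hx hxt).1, _, (hcomb y hy hyt).1, (hcomb x hx hxt).2,
        (hcomb y hy hyt).2, ?_⟩
      have : (1 - lam) • x + lam • xe - ((1 - lam) • y + lam • xe) = (1 - lam) • (x - y) := by
        rw [smul_sub]; abel
      rw [this, inner_smul_left]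
      simp only [conj_trivial]
      have h1 : 0 ≤ 1 - lam := by linarith
      nlinarith [mul_le_mul_of_nonneg_left hxy h1]
  -- integrate
  have hsum : ∑ i, volume (B i) = ∫⁻ t, ∑ i, volume (S i t) := by
    rw [lintegral_finsetSum _ (fun i _ => hSm i)]
    exact Finset.sum_congr rfl fun i _ => (hSint i).symm
  have hlow : ENNReal.ofReal (w' * T / 2) ≤ ∑ i, volume (B i) := by
    rw [hsum]
    refine le_trans (tri_lintegral t₀ T w' hTpos hw'0) (lintegral_mono fun t => ?_)
    by_cases h : t ∈ Icc (t₀ - T / 2) (t₀ + T / 2)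
    · rw [indicator_of_mem h]
      exact hsec t h
    · rw [indicator_of_notMem h]
      exact zero_le
  have hfinal : (1 / 2 : ℝ≥0∞) * A = ENNReal.ofReal (w' * T / 2) := by
    have h1 : w' * T / 2 = 2⁻¹ * A.toReal := by
      rw [hw']; field_simp
    rw [h1, ENNReal.ofReal_mul (by norm_num), ENNReal.ofReal_toReal hAfin]
    congr 1
    rw [ENNReal.ofReal_inv_of_pos (by norm_num)]
    simp
  rw [hfinal]
  exact hlow


/-- If a convex body in three space is covered by finitely many cylinders whose axes `u i` are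
all perpendicular to one nonzero vector `v`, then the bases have total area at least half of
the smallest area of an orthogonal projection of the body onto a plane. The `i`-th cylinder is
the set of points whose coordinates in an orthonormal frame `(a i, b i)` of the plane perpendicular
to `u i` lie in the base `B i`. The bases are arbitrary sets and `volume` of a set is its outer
Lebesgue measure in the coordinate plane. -/
theorem result (K : Set E3) (hKc : IsCompact K) (hKv : Convex ℝ K) (hKi : (interior K).Nonempty)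
    {ι : Type*} [Fintype ι] (u a b : ι → E3)
    (hu : ∀ i, ‖u i‖ = 1) (hab : ∀ i, IsOrthoPair (a i) (b i))
    (hua : ∀ i, inner ℝ (u i) (a i) = 0) (hub : ∀ i, inner ℝ (u i) (b i) = 0)
    (B : ι → Set (ℝ × ℝ))
    (hcover : K ⊆ ⋃ i, {x | planeCoords (a i) (b i) x ∈ B i})
    (v : E3) (hv : v ≠ 0) (huv : ∀ i, inner ℝ (u i) v = 0) :
    (1 / 2 : ℝ≥0∞) * minProjArea K ≤ ∑ i, volume (B i) := by
  classical
  -- charts of the base planes
  have hchart : ∀ i, ∃ e : perpPlane (u i) ≃ᵐ ℝ × ℝ, MeasurePreserving e volume volume ∧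
      ∀ c : perpPlane (u i), e c = (inner ℝ (c : E3) (a i), inner ℝ (c : E3) (b i)) := fun i =>
    exists_chart (u i) (a i) (b i) (hu i) (hab i).1 (hab i).2.1 (hua i) (hub i) (hab i).2.2
  choose e he hee using hchart
  let B' : ∀ i, Set (perpPlane (u i)) := fun i => e i ⁻¹' B i
  have hB' : ∀ i, volume (B' i) = volume (B i) := fun i => (he i).measure_preimage_equiv (B i)
  have hcover' : K ⊆ ⋃ i, cylinder (u i) (B' i) := by
    intro x hx
    obtain ⟨i, hi⟩ := Set.mem_iUnion.mp (hcover hx)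
    refine Set.mem_iUnion.mpr ⟨i, ?_⟩
    let c : perpPlane (u i) := (perpPlane (u i)).orthogonalProjectionOnto x
    have ham : a i ∈ perpPlane (u i) :=
      Submodule.mem_orthogonal_singleton_iff_inner_right.mpr (hua i)
    have hbm : b i ∈ perpPlane (u i) :=
      Submodule.mem_orthogonal_singleton_iff_inner_right.mpr (hub i)
    refine ⟨c, ?_, ?_⟩
    · show e i c ∈ B i
      rw [hee]
      simp only [c, inner_proj (u i) (a i) x ham, inner_proj (u i) (b i) x hbm]
      exact hi
    · have hu1 : inner ℝ (u i) (u i) = 1 := by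
        rw [real_inner_self_eq_norm_sq, hu i]; norm_num
      have hdec := Submodule.starProjection_add_starProjection_orthogonal (K := perpPlane (u i)) x
      refine ⟨inner ℝ (u i) x, ?_⟩
      have h1 : (perpPlane (u i))ᗮ.starProjection x = inner ℝ (u i) x • u i := by
        have h2 : (perpPlane (u i))ᗮ = ℝ ∙ u i := Submodule.orthogonal_orthogonal _
        simp only [h2]
        rw [Submodule.starProjection_singleton, hu i]
        simp
      rw [h1] at hdec
      exact hdec.symm
  have hmain := coplanar_internal K hKc hKv hKi u hu B' v hv huv hcover'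
  simp only [hB'] at hmain
  refine le_trans (mul_le_mul_right ?_ _) hmain
  -- every shadow has a frame
  refine le_iInf fun w => ?_
  obtain ⟨w, hw⟩ := w
  have hw0 : ∃ a₀ : E3, ‖a₀‖ = 1 ∧ inner ℝ a₀ w = 0 := by
    have : Fact (Module.finrank ℝ E3 = 2 + 1) := ⟨finrank_E3⟩
    have hw0' : w ≠ 0 := by
      intro h; simp [h] at hw
    have hfr : Module.finrank ℝ (perpPlane w) = 2 :=
      Submodule.finrank_orthogonal_span_singleton hw0'
    have hnt : Nontrivial (perpPlane w) := Module.nontrivial_of_finrank_pos (R := ℝ) (by omega)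
    obtain ⟨y, hy⟩ := exists_ne (0 : perpPlane w)
    refine ⟨‖y‖⁻¹ • (y : E3), ?_, ?_⟩
    · have hy' : (y : E3) ≠ 0 := by simpa using hy
      have hn : ‖(y : E3)‖ ≠ 0 := norm_ne_zero_iff.mpr hy'
      rw [norm_smul, norm_inv, norm_norm]
      have : ‖y‖ = ‖(y : E3)‖ := rfl
      rw [this]
      field_simp
    · rw [inner_smul_left]
      have := Submodule.mem_orthogonal_singleton_iff_inner_left.mp y.2
      rw [this]; simp
  obtain ⟨a₀, ha₀, ha₀w⟩ := hw0
  obtain ⟨b₀, hb₀, hb₀w, hb₀a⟩ : ∃ b₀ : E3, ‖b₀‖ = 1 ∧ inner ℝ b₀ w = 0 ∧ inner ℝ b₀ a₀ = 0 := by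
    obtain ⟨c, hc, hc1, hc2⟩ := exists_third w a₀ hw ha₀ (by rw [real_inner_comm]; exact ha₀w)
    exact ⟨c, hc, hc1, hc2⟩
  obtain ⟨e₀, he₀, hee₀⟩ := exists_chart w a₀ b₀ hw ha₀ hb₀
    (by rw [real_inner_comm]; exact ha₀w) (by rw [real_inner_comm]; exact hb₀w)
    (by rw [real_inner_comm]; exact hb₀a)
  have ham : a₀ ∈ perpPlane w := Submodule.mem_orthogonal_singleton_iff_inner_right.mpr
    (by rw [real_inner_comm]; exact ha₀w)
  have hbm : b₀ ∈ perpPlane w := Submodule.mem_orthogonal_singleton_iff_inner_right.mpr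
    (by rw [real_inner_comm]; exact hb₀w)
  have hset : shadow K w = e₀ ⁻¹' (planeCoords a₀ b₀ '' K) := by
    ext c
    constructor
    · rintro ⟨x, hx, rfl⟩
      refine ⟨x, hx, ?_⟩
      show planeCoords a₀ b₀ x = _
      rw [hee₀]
      simp only [planeCoords, inner_proj w a₀ x ham, inner_proj w b₀ x hbm]
    · rintro ⟨x, hx, hxc⟩
      refine ⟨x, hx, ?_⟩
      apply e₀.injective
      rw [← hxc, hee₀]
      simp only [planeCoords, inner_proj w a₀ x ham, inner_proj w b₀ x hbm]
  rw [hset, he₀.measure_preimage_equiv]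
  exact iInf_le (fun p : {p : E3 × E3 // IsOrthoPair p.1 p.2} =>
    volume (planeCoords p.1.1 p.1.2 '' K)) ⟨(a₀, b₀), ha₀, hb₀, by
      rw [real_inner_comm]; exact hb₀a⟩


end Vale.Agent.Results.P243.CoplanarAxes
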