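import Vale.Agent.P243.Transfer

/-!
A universal improvement of the constant one third in Bang's cylinder covering problem.
-/

open MeasureTheory Set
open scoped ENNReal Pointwise

namespace Vale.Agent.Results.P243.UniversalBound

open Vale.Agent.P243
open Vale.Agent.P243.Core

/-- Every finite covering of a convex body by cylinders satisfies
`∑ |B i| ≥ (1 / 3 + 10⁻²¹) A_min`. The `i`-th cylinder is the set of points whose coordinates in
the orthonormal frame `(a i, b i)` of a plane lie in the base `B i`, an arbitrary subset of the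
coordinate plane, and `volume (B i)` is its outer Lebesgue measure. The quantity `minProjArea K`
is the infimum of the areas of the orthogonal projections of `K` onto planes through the origin. -/
theorem result (K : Set E3) (hKc : IsCompact K) (hKv : Convex ℝ K) (hKi : (interior K).Nonempty)
    {ι : Type*} [Fintype ι] (a b : ι → E3) (hab : ∀ i, IsOrthoPair (a i) (b i))
    (B : ι → Set (ℝ × ℝ)) (hcover : K ⊆ ⋃ i, {x | planeCoords (a i) (b i) x ∈ B i}) :
    ENNReal.ofReal (1 / 3 + 1 / 10 ^ 21) * minProjArea K ≤ ∑ i, volume (B i) := by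
  by_cases hfin : ∑ i, volume (B i) = ⊤
  · rw [hfin]; exact le_top
  obtain ⟨x₁, hx₁⟩ := hKi
  have hne : (K ×ˢ K).Nonempty := ⟨(x₁, x₁), interior_subset hx₁, interior_subset hx₁⟩
  have hcont : ContinuousOn (fun w : E3 × E3 => ‖w.2 - w.1‖) (K ×ˢ K) :=
    Continuous.continuousOn (by fun_prop)
  obtain ⟨⟨p, q⟩, ⟨hp, hq⟩, hmax⟩ := (hKc.prod hKc).exists_isMaxOn hne hcont
  obtain ⟨D, hDdef⟩ : ∃ D : ℝ, D = ‖q - p‖ := ⟨_, rfl⟩
  have hdiam : ∀ x ∈ K, ∀ x' ∈ K, ‖x - x'‖ ≤ D := by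
    intro x hx x' hx'
    have := hmax (show (x', x) ∈ K ×ˢ K from ⟨hx', hx⟩)
    rw [hDdef]
    exact this
  have hD : 0 < D := by
    obtain ⟨r, hr, hball⟩ := Metric.isOpen_iff.mp isOpen_interior x₁ hx₁
    let f : E3 := EuclideanSpace.single 0 1
    have hf : ‖f‖ = 1 := by simp [f]
    have h1 : x₁ + (r / 2) • f ∈ K := by
      apply interior_subset
      apply hball
      rw [Metric.mem_ball, dist_eq_norm]
      simp only [add_sub_cancel_left, norm_smul, hf, mul_one, Real.norm_eq_abs]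
      rw [abs_of_pos (by positivity)]
      linarith
    have h2 := hdiam _ h1 _ (interior_subset hx₁)
    simp only [add_sub_cancel_left, norm_smul, hf, mul_one, Real.norm_eq_abs] at h2
    rw [abs_of_pos (by positivity)] at h2
    linarith
  obtain ⟨e, hedef⟩ : ∃ e : E3, e = (1 / D) • (q - p) := ⟨_, rfl⟩
  have he : ‖e‖ = 1 := by
    rw [hedef, norm_smul, ← hDdef, Real.norm_of_nonneg (by positivity)]
    field_simp
  have hqp : q - p = D • e := by
    rw [hedef, smul_smul, mul_one_div_cancel hD.ne', one_smul]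
  obtain ⟨e₁, he₁, h1e⟩ := exists_perp e he
  obtain ⟨e₂, he₂, h21, h2e⟩ := exists_third e₁ e he₁ he h1e
  have h12 : inner ℝ e₁ e₂ = 0 := by rw [real_inner_comm]; exact h21
  obtain ⟨χ, hχ, hχe, hP⟩ := exists_chart3 e₁ e₂ e he₁ he₂ he h12 h1e h2e
  obtain ⟨Kh, hKh⟩ : ∃ Kh, Kh = nf p D χ '' K := ⟨_, rfl⟩
  have hcn : Continuous (nf p D χ) := continuous_nf hχe
  have hKhc : IsCompact Kh := hKh ▸ hKc.image hcn
  have hKhv : Convex ℝ Kh := hKh ▸ convex_nf_image hχe hKv
  have hp' : (((0 : Y), (0 : ℝ)) : W) ∈ Kh := by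
    rw [hKh]
    refine ⟨p, hp, ?_⟩
    rw [nf_apply hχe]
    simp
  have hq' : (((0 : Y), (1 : ℝ)) : W) ∈ Kh := by
    rw [hKh]
    refine ⟨q, hq, ?_⟩
    rw [nf_apply hχe, hqp]
    have h1 : inner ℝ (D • e) e₁ = 0 := by
      rw [inner_smul_left, real_inner_comm, h1e]; simp
    have h2 : inner ℝ (D • e) e₂ = 0 := by
      rw [inner_smul_left, real_inner_comm, h2e]; simp
    have h3 : inner ℝ (D • e) e = D := by
      rw [inner_smul_left, real_inner_self_eq_norm_sq, he]; simp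
    rw [h1, h2, h3]
    ext <;> simp
    · exact hD.ne'
  have hd' : ∀ x ∈ Kh, ∀ x' ∈ Kh, d2 x x' ≤ 1 := by
    rw [hKh]
    rintro _ ⟨x, hx, rfl⟩ _ ⟨x', hx', rfl⟩
    rw [d2_nf hD hχe hP, div_le_one (by positivity)]
    exact pow_le_pow_left₀ (norm_nonneg _) (hdiam x hx x' hx') 2
  obtain ⟨m, hm⟩ : ∃ m : ℝ, m = (minProjArea K).toReal := ⟨_, rfl⟩
  obtain ⟨s, hs⟩ : ∃ s : ℝ, s = (∑ i, volume (B i)).toReal := ⟨_, rfl⟩
  have hm0 : 0 ≤ m := hm ▸ ENNReal.toReal_nonneg
  have hs0 : 0 ≤ s := hs ▸ ENNReal.toReal_nonneg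
  have hshadow := fun v => nf_shadow (K := K) (p := p) (χ := χ) hD he₁ he₂ he h12 h1e h2e hχe hP v
  have hmfin : minProjArea K ≠ ⊤ := by
    have h1 := hshadow 0
    have h2 : IsCompact ((fun x : W => x.1 - x.2 • (0 : Y)) '' (nf p D χ '' K)) := by
      rw [← hKh]
      exact hKhc.image (by fun_prop)
    exact ne_top_of_le_ne_top
      (ENNReal.mul_ne_top ENNReal.ofReal_ne_top h2.measure_lt_top.ne) h1
  have hZ : Tst Kh (s / D ^ 2) := by
    rw [hKh, hs]
    exact nf_tst hKc hD hχ hχe hP hab B hcover hfin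
  have hSh : ∀ v : Y, ENNReal.ofReal (m / D ^ 2) ≤
      volume ((fun x : W => x.1 - x.2 • v) '' Kh) := by
    intro v
    have h1 := hshadow v
    rw [← hKh] at h1
    rw [ENNReal.ofReal_div_of_pos (by positivity)]
    apply ENNReal.div_le_of_le_mul
    rw [hm, ENNReal.ofReal_toReal hmfin, mul_comm]
    exact h1
  have hcore := core_bound hKhc hKhv hp' hq' hd' (by positivity) hZ (by positivity) hSh
  have hfinal : (1 / 3 + 1 / 10 ^ 21) * m ≤ s := by
    have h1 : (1 + 1 / 2 ^ 66) * (m / D ^ 2 / 3) * D ^ 2 ≤ s / D ^ 2 * D ^ 2 :=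
      mul_le_mul_of_nonneg_right hcore (by positivity)
    have h2 : s / D ^ 2 * D ^ 2 = s := by field_simp
    have h3 : (1 + 1 / 2 ^ 66) * (m / D ^ 2 / 3) * D ^ 2 = (1 + 1 / 2 ^ 66) / 3 * m := by
      field_simp
    rw [h2, h3] at h1
    refine le_trans ?_ h1
    apply mul_le_mul_of_nonneg_right _ hm0
    norm_num
  rw [← ENNReal.ofReal_toReal hmfin, ← hm, ← ENNReal.ofReal_toReal hfin, ← hs,
    ← ENNReal.ofReal_mul (by norm_num)]
  exact ENNReal.ofReal_le_ofReal hfinal

end Vale.Agent.Results.P243.UniversalBound
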